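import Mathlib
import Vale.Agent.Helper28.RealLine

open MeasureTheory

namespace Vale.Agent.Results.P028.CoprimeSupportUnweighted

/-- For every real shift `γ` and every `ψ : ℕ → [0,∞)` whose support consists of pairwise
coprime positive integers, plain divergence `∑ ψ(q) = ∞` already forces: for almost every real
`x` there are infinitely many `q ≥ 1` with `|q x - a - γ| < ψ(q)` for some integer `a`. -/
theorem result (γ : ℝ) (ψ : ℕ → ℝ) (hψ : ∀ q, 0 ≤ ψ q)
    (hcop : ∀ q r : ℕ, 0 < q → 0 < r → q ≠ r → 0 < ψ q → 0 < ψ r → Nat.Coprime q r)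
    (hdiv : ¬ Summable ψ) :
    ∀ᵐ x : ℝ, {q : ℕ | 0 < q ∧ ∃ a : ℤ, |(q : ℝ) * x - (a : ℝ) - γ| < ψ q}.Infinite :=
  Vale.Agent.Helper28.real_main γ ψ hψ hcop hdiv

end Vale.Agent.Results.P028.CoprimeSupportUnweighted
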