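import Mathlib
import Vale.Agent.Helper28.CircleMainGcd

open MeasureTheory

namespace Vale.Agent.Results.P028.GcdSumCriterion

/-- A gcd-sum criterion for the weak inhomogeneous Duffin-Schaeffer problem (P028, Q1).
Let `γ` be any real shift and `ψ : ℕ → [0,∞)`. Assume there is a constant `C` such that for
every `r ≥ 1` in the support of `ψ`, the sum of `gcd(q, r)` over the `q` in the support with
`1 ≤ q < r` is at most `C r`. If `∑ ψ(q) = ∞`, then for almost every real `x` there are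
infinitely many `q ≥ 1` with `|q x - a - γ| < ψ(q)` for some integer `a`. -/
theorem result (γ : ℝ) (ψ : ℕ → ℝ) (hψ : ∀ q, 0 ≤ ψ q) (C : ℝ)
    (hgcd : ∀ r : ℕ, 0 < r → 0 < ψ r →
      ∑ q ∈ Finset.Ico 1 r, (if 0 < ψ q then (Nat.gcd q r : ℝ) else 0) ≤ C * r)
    (hdiv : ¬ Summable ψ) :
    ∀ᵐ x : ℝ, {q : ℕ | 0 < q ∧ ∃ a : ℤ, |(q : ℝ) * x - (a : ℝ) - γ| < ψ q}.Infinite :=
  Vale.Agent.Helper28.real_main_gcd γ ψ hψ C hgcd hdiv

end Vale.Agent.Results.P028.GcdSumCriterion
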